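import Crest.Agent.R187.Reduce.Basic

/-!
# Task D4, auxiliary file: from the Lie algebra to the group
-/

set_option autoImplicit false

namespace Crest.Agent.R187.Reduce

open MvPolynomial Crest.AlgebraR.FoulkesHowe

variable {a a' n : ℕ}

theorem linSubst_X (g : Matrix (Fin n) (Fin n) ℂ) (v : Var a n) :
    linSubst a g (X v) = ∑ l : Fin n, g v.2 l • (X (v.1, l) : MvPolynomial (Var a n) ℂ) := by
  simp [linSubst]

theorem linSubst_mul (A B : Matrix (Fin n) (Fin n) ℂ) (f : MvPolynomial (Var a n) ℂ) :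
    linSubst a (A * B) f = linSubst a B (linSubst a A f) := by
  have : linSubst a (A * B) = (linSubst a B).comp (linSubst a A) := by
    apply MvPolynomial.algHom_ext
    intro v
    rw [AlgHom.comp_apply, linSubst_X, linSubst_X, map_sum]
    simp only [map_smul, linSubst_X, Matrix.mul_apply, Finset.sum_smul, Finset.smul_sum, smul_smul]
    rw [Finset.sum_comm]
  rw [this]; rfl

/-! ### Diagonal matrices -/

theorem linSubst_diag_X (D : Fin n → ℂ) (v : Var a n) :
    linSubst a (Matrix.diagonal D) (X v) = D v.2 • (X v : MvPolynomial (Var a n) ℂ) := by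
  rw [linSubst_X, Finset.sum_eq_single v.2]
  · simp
  · intro l _ hl
    rw [Matrix.diagonal_apply_ne _ (Ne.symm hl), zero_smul]
  · simp

theorem linSubst_diag_monomial (D : Fin n → ℂ) (m : Var a n →₀ ℕ) (c : ℂ) :
    linSubst a (Matrix.diagonal D) (monomial m c) = (∏ i, D i ^ wtm m i) • monomial m c := by
  classical
  have h1 : (∏ i, D i ^ wtm m i) = ∏ v : Var a n, D v.2 ^ m v := by
    rw [Fintype.prod_prod_type_right]
    apply Finset.prod_congr rfl
    intro i _
    rw [wtm, ← Finset.prod_pow_eq_pow_sum]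
  rw [h1, monomial_eq, map_mul, Finsupp.prod_fintype _ _ (by simp), map_prod]
  simp only [map_pow, linSubst_diag_X, smul_pow, Finset.prod_smul]
  rw [show linSubst a (Matrix.diagonal D) (C c) = C c from (linSubst a _).commutes c, mul_smul_comm]

theorem linSubst_diag_of_wtm (D : Fin n → ℂ) (γ : Fin n → ℕ) (f : MvPolynomial (Var a n) ℂ)
    (h : ∀ m ∈ f.support, wtm m = γ) :
    linSubst a (Matrix.diagonal D) f = (∏ i, D i ^ γ i) • f := by
  conv_lhs => rw [f.as_sum]
  conv_rhs => rw [f.as_sum]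
  rw [map_sum, Finset.smul_sum]
  apply Finset.sum_congr rfl
  intro m hm
  rw [linSubst_diag_monomial, h m hm]

section

variable {U : Submodule ℂ (MvPolynomial (Var a n) ℂ)} (hU : Stable (matE a n) U)
  (φ : MvPolynomial (Var a n) ℂ →ₗ[ℂ] MvPolynomial (Var a' n) ℂ)
  (hφ : ∀ i j, ∀ v ∈ U, φ (matE a n i j v) = matE a' n i j (φ v))

include hU hφ

theorem diag_case (D : Fin n → ℂ) (k : ℕ) : ∀ s : Finset (Fin n → ℕ), s.card = k →
    ∀ f ∈ U, (∀ m ∈ f.support, wtm m ∈ s) →
      linSubst a (Matrix.diagonal D) f ∈ U ∧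
        φ (linSubst a (Matrix.diagonal D) f) = linSubst a' (Matrix.diagonal D) (φ f) := by
  classical
  induction k using Nat.strong_induction_on with
  | _ k ih =>
    intro s hs f hf hw
    by_cases h1 : s.card ≤ 1
    · obtain ⟨γ, hγ⟩ : ∃ γ : Fin n → ℕ, ∀ x ∈ s, x = γ := by
        rcases Finset.card_le_one_iff_subset_singleton.mp h1 with ⟨γ, hγ⟩
        exact ⟨γ, fun x hx => Finset.mem_singleton.mp (hγ hx)⟩
      have e1 : ∀ m ∈ f.support, wtm m = γ := fun m hm => hγ _ (hw m hm)
      have e2 : ∀ m ∈ (φ f).support, wtm m = γ := by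
        intro m hm
        funext i
        apply wtm_of_eigen _ hm
        rw [← hφ i i f hf, eigen_of_wtm (fun m hm => congrFun (e1 m hm) i), map_smul]
      rw [linSubst_diag_of_wtm D γ f e1, linSubst_diag_of_wtm D γ _ e2, map_smul]
      exact ⟨U.smul_mem _ hf, rfl⟩
    · obtain ⟨γ, hγ, γ', hγ', hne⟩ := Finset.one_lt_card.mp (not_le.mp h1)
      obtain ⟨i, hi⟩ := Function.ne_iff.mp hne
      have step : ∀ δ ∈ s, linSubst a (Matrix.diagonal D) (matE a n i i f - (δ i : ℂ) • f) ∈ U ∧
          φ (linSubst a (Matrix.diagonal D) (matE a n i i f - (δ i : ℂ) • f)) =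
            linSubst a' (Matrix.diagonal D) (φ (matE a n i i f - (δ i : ℂ) • f)) := by
        intro δ hδ
        apply ih (s.erase δ).card (by rw [← hs]; exact Finset.card_erase_lt_of_mem hδ) _ rfl
        · exact U.sub_mem (hU i i f hf) (U.smul_mem _ hf)
        · intro m hm
          have h2 := mem_support_iff.mp hm
          rw [coeff_sub, coeff_matE_diag, coeff_smul, smul_eq_mul, ← sub_mul] at h2
          have h3 : m ∈ f.support := mem_support_iff.mpr (right_ne_zero_of_mul h2)
          refine Finset.mem_erase.mpr ⟨?_, hw m h3⟩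
          intro h4
          apply left_ne_zero_of_mul h2
          rw [h4, sub_self]
      have hc : ((γ i : ℂ) - (γ' i : ℂ)) ≠ 0 := by
        rw [sub_ne_zero]; exact_mod_cast hi
      have hdec : f = ((γ i : ℂ) - (γ' i : ℂ))⁻¹ •
          ((matE a n i i f - (γ' i : ℂ) • f) - (matE a n i i f - (γ i : ℂ) • f)) := by
        rw [sub_sub_sub_cancel_left, ← sub_smul, smul_smul, inv_mul_cancel₀ hc, one_smul]
      obtain ⟨p1, p2⟩ := step γ' hγ'
      obtain ⟨q1, q2⟩ := step γ hγ
      generalize matE a n i i f - (γ' i : ℂ) • f = u at *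
      generalize matE a n i i f - (γ i : ℂ) • f = w at *
      rw [hdec]
      simp only [map_smul, map_sub]
      exact ⟨U.smul_mem _ (U.sub_mem p1 q1), by rw [p2, q2]⟩

end

/-! ### Transvections -/

theorem linSubst_transvection_X {i j : Fin n} (c : ℂ) (v : Var a n) :
    linSubst a (Matrix.transvection i j c) (X v) = X v + c • matE a n j i (X v) := by
  classical
  rw [linSubst_X, matE_X]
  simp only [Matrix.transvection, Matrix.add_apply, add_smul, Finset.sum_add_distrib]
  congr 1
  · rw [Finset.sum_eq_single v.2]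
    · simp
    · intro l _ hl
      rw [Matrix.one_apply_ne (Ne.symm hl), zero_smul]
    · simp
  · by_cases h : v.2 = i
    · rw [Finset.sum_eq_single j]
      · simp [h]
      · intro l _ hl
        rw [Matrix.single_apply_of_ne _ _ _ _ _ (fun h' => hl h'.2.symm), zero_smul]
      · simp
    · simp only [h, if_false, smul_zero]
      apply Finset.sum_eq_zero
      intro l _
      rw [Matrix.single_apply_of_ne _ _ _ _ _ (fun h' => h h'.1.symm), zero_smul]

theorem matE_matE_X {i j : Fin n} (hij : i ≠ j) (v : Var a n) :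
    matE a n j i (matE a n j i (X v)) = 0 := by
  rw [matE_X]
  by_cases h : v.2 = i
  · simp only [h, if_true, matE_X, if_neg (Ne.symm hij)]
  · simp [h]

theorem pow_mul_of_kill {i j : Fin n} (y : MvPolynomial (Var a n) ℂ) (hy : matE a n j i y = 0)
    (f : MvPolynomial (Var a n) ℂ) (k : ℕ) :
    (matE a n j i ^ k) (f * y) = (matE a n j i ^ k) f * y := by
  induction k with
  | zero => simp
  | succ k ih => rw [pow_succ', Module.End.mul_apply, ih, matE_mul, hy, mul_zero, add_zero]; rfl

theorem pow_mul_X {i j : Fin n} (hij : i ≠ j) (v : Var a n) (f : MvPolynomial (Var a n) ℂ)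
    (k : ℕ) :
    (matE a n j i ^ (k + 1)) (f * X v) = (matE a n j i ^ (k + 1)) f * X v +
      ((k : ℂ) + 1) • ((matE a n j i ^ k) f * matE a n j i (X v)) := by
  induction k with
  | zero => simp [matE_mul]
  | succ k ih =>
    rw [pow_succ' _ (k + 1), Module.End.mul_apply, ih, map_add, map_smul, matE_mul, matE_mul,
      matE_matE_X hij, mul_zero, add_zero, Module.End.mul_apply]
    have e : matE a n j i ((matE a n j i ^ k) f) = (matE a n j i ^ (k + 1)) f := by
      rw [pow_succ', Module.End.mul_apply]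
    rw [e]
    push_cast
    simp only [add_smul, one_smul]
    abel

/-- the truncated exponential -/
noncomputable def expo (a : ℕ) {n : ℕ} (i j : Fin n) (c : ℂ) (K : ℕ)
    (f : MvPolynomial (Var a n) ℂ) : MvPolynomial (Var a n) ℂ :=
  ∑ k ∈ Finset.range K, (c ^ k / (k.factorial : ℂ)) • (matE a n j i ^ k) f

theorem transvection_expo {i j : Fin n} (hij : i ≠ j) (c : ℂ) (f : MvPolynomial (Var a n) ℂ) :
    ∃ K₀ : ℕ, ∀ K, K₀ ≤ K → (matE a n j i ^ K) f = 0 ∧
      linSubst a (Matrix.transvection i j c) f = expo a i j c K f := by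
  induction f using MvPolynomial.induction_on with
  | C r =>
    have hz : ∀ k, (matE a n j i ^ (k + 1)) (C r) = 0 := by
      intro k
      rw [pow_succ, Module.End.mul_apply, matE_C, map_zero]
    refine ⟨1, fun K hK => ?_⟩
    obtain ⟨K, rfl⟩ : ∃ K', K = K' + 1 := ⟨K - 1, by omega⟩
    refine ⟨hz K, ?_⟩
    rw [expo, Finset.sum_range_succ']
    simp only [hz, smul_zero, Finset.sum_const_zero, zero_add]
    rw [show linSubst a (Matrix.transvection i j c) (C r) = C r from (linSubst a _).commutes r]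
    simp
  | add p q hp hq =>
    obtain ⟨K₁, h₁⟩ := hp
    obtain ⟨K₂, h₂⟩ := hq
    refine ⟨max K₁ K₂, fun K hK => ?_⟩
    obtain ⟨p1, p2⟩ := h₁ K (le_trans (le_max_left _ _) hK)
    obtain ⟨q1, q2⟩ := h₂ K (le_trans (le_max_right _ _) hK)
    refine ⟨by rw [map_add, p1, q1, add_zero], ?_⟩
    rw [map_add, p2, q2]
    simp only [expo, map_add, smul_add, Finset.sum_add_distrib]
  | mul_X p v hp =>
    obtain ⟨K₁, h₁⟩ := hp
    refine ⟨K₁ + 1, fun K hK => ?_⟩
    obtain ⟨K, rfl⟩ : ∃ K', K = K' + 1 := ⟨K - 1, by omega⟩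
    obtain ⟨p1, p2⟩ := h₁ K (by omega)
    obtain ⟨q1, q2⟩ := h₁ (K + 1) (by omega)
    refine ⟨by rw [pow_mul_X hij, p1, q1]; simp, ?_⟩
    rw [map_mul, linSubst_transvection_X, mul_add]
    conv_lhs => rw [mul_smul_comm]; enter [2]; rw [p2]
    rw [q2]
    simp only [expo]
    rw [Finset.sum_range_succ' _ K, Finset.sum_range_succ' (fun k =>
      (c ^ k / (k.factorial : ℂ)) • (matE a n j i ^ k) (p * X v)) K]
    simp only [pow_mul_X hij, smul_add, Finset.sum_add_distrib, add_mul, Finset.sum_mul,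
      smul_mul_assoc, Finset.smul_sum, smul_smul, pow_zero, Module.End.one_apply]
    have e : ∀ k : ℕ, c * (c ^ k / (k.factorial : ℂ)) =
        c ^ (k + 1) / ((k + 1).factorial : ℂ) * ((k : ℂ) + 1) := by
      intro k
      have h1 : (k.factorial : ℂ) ≠ 0 := by exact_mod_cast k.factorial_ne_zero
      have h2 : ((k : ℂ) + 1) ≠ 0 := by exact_mod_cast k.succ_ne_zero
      rw [Nat.factorial_succ]
      push_cast
      field_simp
      ring
    simp only [e]
    abel

section

variable {U : Submodule ℂ (MvPolynomial (Var a n) ℂ)} (hU : Stable (matE a n) U)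
  (φ : MvPolynomial (Var a n) ℂ →ₗ[ℂ] MvPolynomial (Var a' n) ℂ)
  (hφ : ∀ i j, ∀ v ∈ U, φ (matE a n i j v) = matE a' n i j (φ v))

include hU hφ

theorem pow_comm (i j : Fin n) (k : ℕ) : ∀ f ∈ U, (matE a n i j ^ k) f ∈ U ∧
    φ ((matE a n i j ^ k) f) = (matE a' n i j ^ k) (φ f) := by
  intro f hf
  induction k with
  | zero => exact ⟨hf, rfl⟩
  | succ k ih =>
    rw [pow_succ', pow_succ', Module.End.mul_apply, Module.End.mul_apply]
    exact ⟨hU i j _ ih.1, by rw [hφ i j _ ih.1, ih.2]⟩

theorem transvection_case {i j : Fin n} (hij : i ≠ j) (c : ℂ) : ∀ f ∈ U,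
    linSubst a (Matrix.transvection i j c) f ∈ U ∧
      φ (linSubst a (Matrix.transvection i j c) f) =
        linSubst a' (Matrix.transvection i j c) (φ f) := by
  intro f hf
  obtain ⟨K₁, h₁⟩ := transvection_expo hij c f
  obtain ⟨K₂, h₂⟩ := transvection_expo hij c (φ f)
  rw [(h₁ (max K₁ K₂) (le_max_left _ _)).2, (h₂ (max K₁ K₂) (le_max_right _ _)).2]
  simp only [expo, map_sum, map_smul]
  refine ⟨U.sum_mem (fun k _ => U.smul_mem _ (pow_comm hU φ hφ j i k f hf).1), ?_⟩
  apply Finset.sum_congr rfl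
  intro k _
  rw [(pow_comm hU φ hφ j i k f hf).2]

theorem group_case (g : Matrix (Fin n) (Fin n) ℂ) (hg : g.det ≠ 0) :
    ∀ f ∈ U, linSubst a g f ∈ U ∧ φ (linSubst a g f) = linSubst a' g (φ f) := by
  classical
  refine Matrix.diagonal_transvection_induction_of_det_ne_zero
    (fun g => ∀ f ∈ U, linSubst a g f ∈ U ∧ φ (linSubst a g f) = linSubst a' g (φ f)) g hg
    ?_ ?_ ?_
  · intro D _ f hf
    exact diag_case hU φ hφ D _ (f.support.image wtm) rfl f hf
      (fun m hm => Finset.mem_image_of_mem _ hm)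
  · intro t f hf
    exact transvection_case hU φ hφ t.hij t.c f hf
  · intro A B _ _ hA hB f hf
    obtain ⟨p1, p2⟩ := hA f hf
    obtain ⟨q1, q2⟩ := hB _ p1
    rw [linSubst_mul, linSubst_mul]
    exact ⟨q1, by rw [q2, p2]⟩

end

end Crest.Agent.R187.Reduce
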