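import Crest.Agent.R187.Defs

/-!
# Task D4, auxiliary file: the operators `matE` in coordinates; row bound; change of `n`
-/

set_option autoImplicit false

namespace Crest.Agent.R187.Reduce

open MvPolynomial Crest.AlgebraR.FoulkesHowe

variable {a n : ℕ}

/-- `matE` as a derivation -/
noncomputable def der (a n : ℕ) (i j : Fin n) :
    Derivation ℂ (MvPolynomial (Var a n) ℂ) (MvPolynomial (Var a n) ℂ) :=
  mkDerivation ℂ (fun v : Var a n =>
    if v.2 = j then (X (v.1, i) : MvPolynomial (Var a n) ℂ) else 0)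

theorem matE_eq_der (i j : Fin n) (f : MvPolynomial (Var a n) ℂ) :
    matE a n i j f = der a n i j f := rfl

theorem matE_X (i j : Fin n) (v : Var a n) :
    matE a n i j (X v) = if v.2 = j then (X (v.1, i) : MvPolynomial (Var a n) ℂ) else 0 := by
  rw [matE_eq_der, der, mkDerivation_X]

theorem matE_C (i j : Fin n) (c : ℂ) : matE a n i j (C c) = 0 := by
  rw [matE_eq_der, derivation_C]

theorem matE_mul (i j : Fin n) (f g : MvPolynomial (Var a n) ℂ) :
    matE a n i j (f * g) = matE a n i j f * g + f * matE a n i j g := by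
  simp only [matE_eq_der, Derivation.leibniz, smul_eq_mul]; ring

theorem matE_apply (i j : Fin n) (f : MvPolynomial (Var a n) ℂ) :
    matE a n i j f = ∑ r : Fin a, X (r, i) * pderiv (r, j) f := by
  induction f using MvPolynomial.induction_on with
  | C c => simp [matE_C]
  | add p q hp hq => simp only [map_add, hp, hq, mul_add, Finset.sum_add_distrib]
  | mul_X p v hp =>
    rw [matE_mul, hp, matE_X]
    simp only [pderiv_mul, mul_add, Finset.sum_add_distrib, Finset.sum_mul, mul_assoc]
    congr 1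
    rcases v with ⟨r, k⟩
    by_cases hk : k = j
    · subst hk
      rw [Finset.sum_eq_single r]
      · simp [mul_comm]
      · intro r' _ hr'
        rw [pderiv_X_of_ne (by simp [Ne.symm hr'])]; simp
      · simp
    · simp only [hk, if_false, mul_zero]
      symm
      apply Finset.sum_eq_zero
      intro r' _
      rw [pderiv_X_of_ne (by simp [hk])]; simp

/-- the weight of a monomial -/
def wtm (m : Var a n →₀ ℕ) : Fin n → ℕ := fun i => ∑ r : Fin a, m (r, i)

theorem matE_monomial (i : Fin n) (m : Var a n →₀ ℕ) (c : ℂ) :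
    matE a n i i (monomial m c) = (wtm m i : ℂ) • monomial m c := by
  rw [matE_apply]
  simp only [X_mul_pderiv_monomial, wtm, Nat.cast_sum, Finset.sum_smul, Nat.cast_smul_eq_nsmul]

theorem coeff_matE_diag (i : Fin n) (f : MvPolynomial (Var a n) ℂ) (m : Var a n →₀ ℕ) :
    coeff m (matE a n i i f) = (wtm m i : ℂ) * coeff m f := by
  classical
  induction f using MvPolynomial.induction_on' with
  | monomial u c =>
    rw [matE_monomial, coeff_smul, coeff_monomial, smul_eq_mul]
    by_cases h : u = m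
    · subst h; rfl
    · simp [h]
  | add p q hp hq => simp only [map_add, coeff_add, hp, hq, mul_add]

theorem wtm_of_eigen {f : MvPolynomial (Var a n) ℂ} {i : Fin n} {k : ℕ}
    (h : matE a n i i f = (k : ℂ) • f) {m : Var a n →₀ ℕ} (hm : m ∈ f.support) : wtm m i = k := by
  have h1 := coeff_matE_diag i f m
  rw [h, coeff_smul, smul_eq_mul] at h1
  have h2 : coeff m f ≠ 0 := mem_support_iff.mp hm
  have h3 : (k : ℂ) = (wtm m i : ℂ) := mul_right_cancel₀ h2 h1
  exact_mod_cast h3.symm

theorem eigen_of_wtm {f : MvPolynomial (Var a n) ℂ} {i : Fin n} {k : ℕ}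
    (h : ∀ m ∈ f.support, wtm m i = k) : matE a n i i f = (k : ℂ) • f := by
  ext m
  rw [coeff_matE_diag, coeff_smul, smul_eq_mul]
  by_cases hm : m ∈ f.support
  · rw [h m hm]
  · rw [notMem_support_iff.mp hm]; simp

/-! ### Row bound -/

theorem eq_zero_of_rows {lam : Fin n → ℕ} {j : Fin n} (hj : a ≤ (j : ℕ)) (hl : lam j ≠ 0)
    {f : MvPolynomial (Var a n) ℂ} (hf : f ∈ hw (matE a n) lam) : f = 0 := by
  classical
  rw [mem_hw] at hf
  let c : Fin a → Fin n := fun i => ⟨i, lt_trans (lt_of_lt_of_le i.2 hj) j.2⟩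
  let M : Matrix (Fin a) (Fin a) (MvPolynomial (Var a n) ℂ) := fun i r => X (r, c i)
  have hdet : M.det ≠ 0 := by
    intro h0
    let ev : MvPolynomial (Var a n) ℂ →+* ℂ :=
      eval (fun v : Var a n => if (v.1 : ℕ) = (v.2 : ℕ) then 1 else 0)
    have h1 := ev.map_det M
    have h2 : ev.mapMatrix M = 1 := by
      ext i r
      have e : ev.mapMatrix M i r = if (r : ℕ) = (i : ℕ) then 1 else 0 := by
        change ev (X (r, c i)) = _
        simp only [ev, eval_X, c]
      rw [e, Matrix.one_apply]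
      by_cases h : i = r
      · simp [h]
      · have : ¬ ((r : ℕ) = (i : ℕ)) := fun h' => h (Fin.ext h'.symm)
        simp [h, this]
    rw [h0, h2] at h1
    simp at h1
  have hv : M.mulVec (fun r => pderiv (r, j) f) = 0 := by
    funext i
    have := hf.2 (c i) j (show (i : ℕ) < j from lt_of_lt_of_le i.2 hj)
    rw [matE_apply] at this
    exact this
  have h0 := Matrix.eq_zero_of_mulVec_eq_zero hdet hv
  have h1 := hf.1 j
  rw [matE_apply] at h1
  have h2 : ∑ r : Fin a, X (r, j) * pderiv (r, j) f = 0 := by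
    apply Finset.sum_eq_zero
    intro r _
    rw [show pderiv (r, j) f = 0 from congrFun h0 r, mul_zero]
  rw [h2] at h1
  have h3 : (lam j : ℂ) ≠ 0 := by exact_mod_cast hl
  exact (smul_eq_zero.mp h1.symm).resolve_left h3

/-! ### Change of the number of variables -/

/-- inclusion of variables -/
def incl (a : ℕ) {n N : ℕ} (h : n ≤ N) : Var a n → Var a N := fun v => (v.1, Fin.castLE h v.2)

theorem incl_injective (a : ℕ) {n N : ℕ} (h : n ≤ N) : Function.Injective (incl a h) := by
  rintro ⟨r, k⟩ ⟨r', k'⟩ e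
  simp only [incl, Prod.mk.injEq] at e
  exact Prod.ext e.1 (Fin.castLE_injective h e.2)

theorem rename_matE {N : ℕ} (h : n ≤ N) (i j : Fin n) (f : MvPolynomial (Var a n) ℂ) :
    rename (incl a h) (matE a n i j f) =
      matE a N (Fin.castLE h i) (Fin.castLE h j) (rename (incl a h) f) := by
  rw [matE_apply, matE_apply, map_sum]
  apply Finset.sum_congr rfl
  intro r _
  rw [map_mul, rename_X, ← pderiv_rename (incl_injective a h)]
  rfl

theorem matE_rename_big {N : ℕ} (h : n ≤ N) (i j : Fin N) (hj : n ≤ (j : ℕ))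
    (f : MvPolynomial (Var a n) ℂ) : matE a N i j (rename (incl a h) f) = 0 := by
  rw [matE_apply]
  apply Finset.sum_eq_zero
  intro r _
  rw [pderiv_eq_zero_of_notMem_vars, mul_zero]
  intro hv
  obtain ⟨v, -, e⟩ := mem_vars_rename _ _ hv
  have : (Fin.castLE h v.2 : ℕ) = j := congrArg (fun x : Var a N => (x.2 : ℕ)) e
  have h2 := v.2.2
  simp only [Fin.val_castLE] at this
  omega

theorem isWH_rename {σ τ : Type*} {e : σ → τ} (he : Function.Injective e) (w : τ → ℕ)
    (f : MvPolynomial σ ℂ) (b : ℕ) :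
    IsWeightedHomogeneous w (rename e f) b ↔ IsWeightedHomogeneous (w ∘ e) f b := by
  classical
  have hw : ∀ m : σ →₀ ℕ, Finsupp.weight w (m.mapDomain e) = Finsupp.weight (w ∘ e) m := by
    intro m
    rw [Finsupp.weight_apply, Finsupp.weight_apply, Finsupp.sum_mapDomain_index_inj he]
    rfl
  constructor
  · intro h m hm
    rw [← hw]
    apply h
    rwa [coeff_rename_mapDomain e he]
  · intro h m hm
    obtain ⟨u, hu, hu'⟩ := coeff_rename_ne_zero e f m hm
    rw [← hu, hw]
    exact h hu'

theorem mem_blockSym {d : ℕ} {f : MvPolynomial (Var a n) ℂ} :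
    f ∈ blockSym a n d ↔ (∀ i : Fin a, IsWeightedHomogeneous (blockWeight i) f d) ∧
      ∀ σ : Equiv.Perm (Fin a), rename (blockPerm σ) f = f := by
  simp [blockSym, Submodule.mem_iInf, LinearMap.mem_eqLocus, mem_weightedHomogeneousSubmodule]

theorem rename_mem_blockSym {N d : ℕ} (h : n ≤ N) (f : MvPolynomial (Var a n) ℂ) :
    rename (incl a h) f ∈ blockSym a N d ↔ f ∈ blockSym a n d := by
  rw [mem_blockSym, mem_blockSym]
  apply and_congr
  · apply forall_congr'
    intro i
    rw [isWH_rename (incl_injective a h)]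
    rfl
  · apply forall_congr'
    intro σ
    have : rename (blockPerm σ) (rename (incl a h) f) =
        rename (incl a h) (rename (blockPerm σ) f) := by
      rw [rename_rename, rename_rename]; rfl
    rw [this]
    exact (rename_injective _ (incl_injective a h)).eq_iff

theorem rename_mem_hw {N : ℕ} (h : n ≤ N) (lam : Fin n → ℕ) (lam' : Fin N → ℕ)
    (h1 : ∀ i, lam' (Fin.castLE h i) = lam i) (h2 : ∀ k : Fin N, n ≤ (k : ℕ) → lam' k = 0)
    (f : MvPolynomial (Var a n) ℂ) :
    rename (incl a h) f ∈ hw (matE a N) lam' ↔ f ∈ hw (matE a n) lam := by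
  have hinj := rename_injective (R := ℂ) _ (incl_injective a h)
  rw [mem_hw, mem_hw]
  constructor
  · rintro ⟨p1, p2⟩
    refine ⟨fun i => hinj ?_, fun i j hij => hinj ?_⟩
    · rw [rename_matE, p1, h1, map_smul]
    · rw [rename_matE, p2 _ _ (by simpa using hij), map_zero]
  · rintro ⟨p1, p2⟩
    refine ⟨fun i => ?_, fun i j hij => ?_⟩
    · by_cases hi : (i : ℕ) < n
      · have e : i = Fin.castLE h ⟨i, hi⟩ := Fin.ext rfl
        rw [e, ← rename_matE, p1, h1, map_smul]
      · rw [matE_rename_big h i i (by omega), h2 i (by omega)]; simp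
    · by_cases hj : (j : ℕ) < n
      · have hi : (i : ℕ) < n := lt_trans hij hj
        have e : i = Fin.castLE h ⟨i, hi⟩ := Fin.ext rfl
        have e' : j = Fin.castLE h ⟨j, hj⟩ := Fin.ext rfl
        rw [e, e', ← rename_matE, p2 _ _ (show (i : ℕ) < j from hij), map_zero]
      · exact matE_rename_big h i j (by omega) f

theorem exists_rename_of_hw {N : ℕ} (h : n ≤ N) (lam' : Fin N → ℕ)
    (h2 : ∀ k : Fin N, n ≤ (k : ℕ) → lam' k = 0) {F : MvPolynomial (Var a N) ℂ}
    (hF : F ∈ hw (matE a N) lam') : ∃ f, rename (incl a h) f = F := by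
  classical
  apply exists_rename_eq_of_vars_subset_range F _ (incl_injective a h)
  rintro ⟨r, k⟩ hv
  obtain ⟨m, hm, hmv⟩ := (mem_vars_iff_mem_support _).mp (Finset.mem_coe.mp hv)
  by_cases hk : (k : ℕ) < n
  · exact ⟨(r, ⟨k, hk⟩), Prod.ext rfl (Fin.ext rfl)⟩
  · exfalso
    have h3 := wtm_of_eigen ((mem_hw.mp hF).1 k) hm
    rw [h2 k (by omega)] at h3
    have h4 := (Finset.sum_eq_zero_iff.mp h3) r (Finset.mem_univ r)
    exact (Finsupp.mem_support_iff.mp hmv) h4

theorem hdim_eq_of_incl (d : ℕ) {N : ℕ} (h : n ≤ N) (lam : Fin n → ℕ) (lam' : Fin N → ℕ)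
    (h1 : ∀ i, lam' (Fin.castLE h i) = lam i) (h2 : ∀ k : Fin N, n ≤ (k : ℕ) → lam' k = 0) :
    hdim (matE a n) (blockSym a n d) lam = hdim (matE a N) (blockSym a N d) lam' := by
  have hinj : Function.Injective
      (rename (incl a h) : MvPolynomial (Var a n) ℂ →ₐ[ℂ] _).toLinearMap :=
    rename_injective (R := ℂ) _ (incl_injective a h)
  have hmap : (blockSym a n d ⊓ hw (matE a n) lam).map
      (rename (incl a h) : MvPolynomial (Var a n) ℂ →ₐ[ℂ] _).toLinearMap =
      blockSym a N d ⊓ hw (matE a N) lam' := by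
    ext F
    constructor
    · rintro ⟨f, ⟨p1, p2⟩, rfl⟩
      exact ⟨(rename_mem_blockSym h f).mpr p1, (rename_mem_hw h lam lam' h1 h2 f).mpr p2⟩
    · rintro ⟨p1, p2⟩
      obtain ⟨f, rfl⟩ := exists_rename_of_hw h lam' h2 p2
      exact ⟨f, ⟨(rename_mem_blockSym h f).mp p1, (rename_mem_hw h lam lam' h1 h2 f).mp p2⟩, rfl⟩
  unfold hdim
  rw [← hmap]
  exact (Submodule.equivMapOfInjective _ hinj _).finrank_eq

end Crest.Agent.R187.Reduce
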